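import Vale.Agent.P210.R2.H401.CSpec

open Set Metric Filter
open Vale.Agent.P210.R2.H401

noncomputable section

namespace Vale.Agent.P210.R2.H635

/-- counting the large increments of a nondecreasing sequence -/
theorem count_incr (ψ : ℕ → ℝ) (hψ : Monotone ψ) (a N : ℕ) (δ M : ℝ)
    (hM : ψ (N + a) - ψ 0 ≤ M) (B : Finset ℕ) (hB : B ⊆ Finset.range N)
    (hinc : ∀ k ∈ B, δ ≤ ψ (k + a) - ψ k) : (B.card : ℝ) * δ ≤ a * M := by
  have h1 : (B.card : ℝ) * δ ≤ ∑ k ∈ B, (ψ (k + a) - ψ k) := by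
    have := Finset.card_nsmul_le_sum B (fun k => ψ (k + a) - ψ k) δ hinc
    simpa [nsmul_eq_mul] using this
  have h2 : ∑ k ∈ B, (ψ (k + a) - ψ k) ≤ ∑ k ∈ Finset.range N, (ψ (k + a) - ψ k) :=
    Finset.sum_le_sum_of_subset_of_nonneg hB
      (fun k _ _ => sub_nonneg.mpr (hψ (Nat.le_add_right k a)))
  have h3 : ∀ k, ψ (k + a) - ψ k = ∑ j ∈ Finset.range a, (ψ (k + (j + 1)) - ψ (k + j)) := by
    intro k
    rw [Finset.sum_range_sub (fun j => ψ (k + j)) a]
    simp
  have h4 : ∑ k ∈ Finset.range N, (ψ (k + a) - ψ k) =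
      ∑ j ∈ Finset.range a, (ψ (N + j) - ψ j) := by
    rw [Finset.sum_congr rfl (fun k _ => h3 k), Finset.sum_comm]
    refine Finset.sum_congr rfl (fun j _ => ?_)
    have := Finset.sum_range_sub (fun k => ψ (k + j)) N
    rw [zero_add] at this
    rw [← this]
    refine Finset.sum_congr rfl (fun k _ => ?_)
    rw [show k + (j + 1) = k + 1 + j by ring]
  have h5 : ∑ j ∈ Finset.range a, (ψ (N + j) - ψ j) ≤ ∑ _j ∈ Finset.range a, M := by
    refine Finset.sum_le_sum (fun j hj => ?_)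
    have hj' : j < a := Finset.mem_range.mp hj
    have e1 : ψ (N + j) ≤ ψ (N + a) := hψ (by omega)
    have e2 : ψ 0 ≤ ψ j := hψ (Nat.zero_le j)
    linarith
  rw [Finset.sum_const, Finset.card_range, nsmul_eq_mul] at h5
  linarith

theorem flat : Stmt.FLAT := by
  intro n a e L he hL
  have hδ : 0 < Real.log (1 + e) := Real.log_pos (by linarith)
  refine ⟨⌈(a : ℝ) * (Real.log L + 4 / 3) / Real.log (1 + e)⌉₊, ?_⟩
  intro S hS z r N hr hK hV
  classical
  have hVpos : ∀ m : ℕ, 0 < S.V z (r / 2 ^ m) := fun m => hS.pos z _ (by positivity)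
  have hV0 : 0 < S.V z r := hS.pos z r hr
  set φ : ℕ → ℝ := fun m => 2 ^ (m * n) * S.V z (r / 2 ^ m) / S.V z r with hφ
  have hφpos : ∀ m, 0 < φ m := fun m => by
    have := hVpos m
    simp only [hφ]; positivity
  have hφ0 : φ 0 = 1 := by simp [hφ, hV0.ne']
  have hstep : ∀ m, φ m ≤ φ (m + 1) * Real.exp (S.K * r ^ 2 * (1 / 4) ^ m) := by
    intro m
    have hb := hS.bg z (r / 2 ^ (m + 1)) (r / 2 ^ m) (by positivity)
      (div_le_div_of_nonneg_left hr.le (by positivity)
        (pow_le_pow_right₀ (by norm_num) (Nat.le_succ m)))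
    have e1 : r / 2 ^ m / (r / 2 ^ (m + 1)) = 2 := by
      rw [pow_succ]; field_simp
    have e2 : S.K * (r / 2 ^ m) ^ 2 = S.K * r ^ 2 * (1 / 4) ^ m := by
      rw [div_pow, one_div, inv_pow, ← pow_mul, mul_comm m 2, pow_mul]
      norm_num
      ring
    rw [e1, e2] at hb
    simp only [hφ]
    rw [div_mul_eq_mul_div]
    apply div_le_div_of_nonneg_right _ hV0.le
    calc 2 ^ (m * n) * S.V z (r / 2 ^ m)
        ≤ 2 ^ (m * n) * (2 ^ n * Real.exp (S.K * r ^ 2 * (1 / 4) ^ m) *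
          S.V z (r / 2 ^ (m + 1))) := by gcongr
      _ = 2 ^ ((m + 1) * n) * S.V z (r / 2 ^ (m + 1)) *
          Real.exp (S.K * r ^ 2 * (1 / 4) ^ m) := by
          rw [add_mul, one_mul, pow_add]; ring
  set ψ : ℕ → ℝ := fun m => Real.log (φ m) - 4 / 3 * (S.K * r ^ 2) * (1 / 4) ^ m with hψ
  have hKr : 0 ≤ S.K * r ^ 2 := mul_nonneg hS.Kpos.le (sq_nonneg r)
  have hmono : Monotone ψ := by
    refine monotone_nat_of_le_succ (fun m => ?_)
    have h1 := Real.log_le_log (hφpos m) (hstep m)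
    rw [Real.log_mul (hφpos _).ne' (Real.exp_pos _).ne', Real.log_exp] at h1
    simp only [hψ]
    rw [pow_succ (1 / 4 : ℝ) m]
    linarith
  have hM : ψ (N + a) - ψ 0 ≤ Real.log L + 4 / 3 := by
    have h1 : φ (N + a) ≤ L := by
      simp only [hφ]
      rw [div_le_iff₀ hV0]
      calc 2 ^ ((N + a) * n) * S.V z (r / 2 ^ (N + a))
          ≤ 2 ^ ((N + a) * n) * (L * ((1 / 2) ^ (N + a)) ^ n * S.V z r) := by gcongr
        _ = L * S.V z r := by
            rw [← pow_mul, one_div, inv_pow]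
            field_simp
    have h2 := Real.log_le_log (hφpos _) h1
    have h3 : (0 : ℝ) ≤ 4 / 3 * (S.K * r ^ 2) * (1 / 4) ^ (N + a) := by positivity
    simp only [hψ, hφ0, Real.log_one, pow_zero]
    linarith
  set B : Finset ℕ := (Finset.range N).filter
    (fun k => ¬ S.V z ((1 / 2) ^ a * (r / 2 ^ k)) ≤
      (1 + e) * ((1 / 2) ^ a) ^ n * S.V z (r / 2 ^ k)) with hB
  refine ⟨B, Finset.filter_subset _ _, ?_, ?_⟩
  · have hinc : ∀ k ∈ B, Real.log (1 + e) ≤ ψ (k + a) - ψ k := by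
      intro k hk
      have hk2 := (Finset.mem_filter.mp hk).2
      push Not at hk2
      have e1 : (1 / 2 : ℝ) ^ a * (r / 2 ^ k) = r / 2 ^ (k + a) := by
        rw [one_div, inv_pow, pow_add]; field_simp
      rw [e1] at hk2
      have h1 : (1 + e) * φ k ≤ φ (k + a) := by
        simp only [hφ]
        rw [mul_div_assoc', div_le_div_iff_of_pos_right hV0]
        calc (1 + e) * (2 ^ (k * n) * S.V z (r / 2 ^ k))
            = 2 ^ ((k + a) * n) * ((1 + e) * ((1 / 2) ^ a) ^ n * S.V z (r / 2 ^ k)) := by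
              rw [← pow_mul, one_div, inv_pow, add_mul k a n, pow_add]
              field_simp
          _ ≤ _ := by gcongr
      have h2 := Real.log_le_log (by have := hφpos k; positivity) h1
      rw [Real.log_mul (by positivity) (hφpos k).ne'] at h2
      have h3 : (4 / 3 : ℝ) * (S.K * r ^ 2) * (1 / 4) ^ (k + a) ≤
          4 / 3 * (S.K * r ^ 2) * (1 / 4) ^ k := by
        apply mul_le_mul_of_nonneg_left _ (by positivity)
        exact pow_le_pow_of_le_one (by norm_num) (by norm_num) (Nat.le_add_right k a)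
      simp only [hψ]
      linarith
    have h := count_incr ψ hmono a N _ _ hM B (Finset.filter_subset _ _) hinc
    have h2 : (B.card : ℝ) ≤ (a : ℝ) * (Real.log L + 4 / 3) / Real.log (1 + e) := by
      rw [le_div_iff₀ hδ]; exact h
    exact_mod_cast h2.trans (Nat.le_ceil _)
  · intro k hk hkB
    by_contra hcon
    exact hkB (Finset.mem_filter.mpr ⟨Finset.mem_range.mpr hk, hcon⟩)

end Vale.Agent.P210.R2.H635
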