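import Vale.Agent.P210.R2.H401.CSpec

open Set Metric Filter
open Vale.Agent.P210.R2.H53 (HCge)
open Vale.Agent.P210.R2.H401

noncomputable section

namespace Vale.Agent.P210.R2.H635

/-- the number of sets of at most `K` elements of `range N` -/
theorem card_small (N K : ℕ) :
    (((Finset.range N).powerset).filter (fun B => B.card ≤ K)).card ≤ (N + 1) ^ K := by
  classical
  induction K with
  | zero =>
    have : ((Finset.range N).powerset).filter (fun B => B.card ≤ 0) ⊆ {∅} := by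
      intro B hB
      simp only [Finset.mem_filter, Finset.mem_powerset, Nat.le_zero, Finset.card_eq_zero] at hB
      simp [hB.2]
    simpa using Finset.card_le_card this
  | succ K ih =>
    have hsub : ((Finset.range N).powerset).filter (fun B => B.card ≤ K + 1) ⊆
        ((((Finset.range N).powerset).filter (fun B => B.card ≤ K)) ×ˢ
          (Finset.range (N + 1))).image
          (fun p => if p.2 < N then insert p.2 p.1 else p.1) := by
      intro B hB
      simp only [Finset.mem_filter, Finset.mem_powerset] at hB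
      obtain ⟨hB1, hB2⟩ := hB
      rw [Finset.mem_image]
      by_cases hc : B.card ≤ K
      · refine ⟨(B, N), ?_, by simp⟩
        simp [hB1, hc]
      · have hpos : 0 < B.card := by omega
        obtain ⟨i, hi⟩ := Finset.card_pos.mp hpos
        have hiN : i < N := Finset.mem_range.mp (hB1 hi)
        refine ⟨(B.erase i, i), ?_, ?_⟩
        · simp only [Finset.mem_product, Finset.mem_filter, Finset.mem_powerset, Finset.mem_range]
          refine ⟨⟨(Finset.erase_subset _ _).trans hB1, ?_⟩, by omega⟩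
          rw [Finset.card_erase_of_mem hi]; omega
        · simp [hiN, Finset.insert_erase hi]
    calc _ ≤ _ := Finset.card_le_card hsub
      _ ≤ _ := Finset.card_image_le
      _ = (((Finset.range N).powerset).filter (fun B => B.card ≤ K)).card * (N + 1) := by
          rw [Finset.card_product, Finset.card_range]
      _ ≤ (N + 1) ^ K * (N + 1) := Nat.mul_le_mul_right _ ih
      _ = (N + 1) ^ (K + 1) := (pow_succ _ _).symm

theorem pig : Stmt.PIG := by
  intro X _ n N K₁ ρ a P Q hρ ha hP hQ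
  classical
  by_contra hcon
  push Not at hcon
  set 𝓑 := ((Finset.range N).powerset).filter (fun B => B.card ≤ K₁) with h𝓑
  have hN : (0 : ℝ) < ((N : ℝ) + 1) ^ K₁ := by positivity
  have hex : ∀ B : Finset ℕ, ∃ S : Finset (X × ℝ), B ∈ 𝓑 → ((∀ c ∈ S, ρ ≤ c.2) ∧
      {z ∈ P | Q z B} ⊆ ⋃ c ∈ S, closedBall c.1 c.2 ∧
      ∑ c ∈ S, c.2 ^ (n - 1) < a / ((N : ℝ) + 1) ^ K₁) := by
    intro B
    by_cases hB : B ∈ 𝓑
    · have h1 : B.card ≤ K₁ := (Finset.mem_filter.mp hB).2
      have h2 := hcon B h1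
      unfold HCge at h2
      push Not at h2
      obtain ⟨S, h3, h4, h5⟩ := h2
      exact ⟨S, fun _ => ⟨h3, h4, h5⟩⟩
    · exact ⟨∅, fun h => absurd h hB⟩
  choose S hS using hex
  have hcov : P ⊆ ⋃ c ∈ 𝓑.biUnion S, closedBall c.1 c.2 := by
    intro z hz
    obtain ⟨B, hB1, hB2, hB3⟩ := hQ z hz
    have hB : B ∈ 𝓑 := by simp [h𝓑, hB1, hB2]
    have := (hS B hB).2.1 (show z ∈ {z ∈ P | Q z B} from ⟨hz, hB3⟩)
    simp only [mem_iUnion] at this ⊢
    obtain ⟨c, hc, hz'⟩ := this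
    exact ⟨c, Finset.mem_biUnion.mpr ⟨B, hB, hc⟩, hz'⟩
  have hr : ∀ c ∈ 𝓑.biUnion S, ρ ≤ c.2 := by
    intro c hc
    obtain ⟨B, hB, hc⟩ := Finset.mem_biUnion.mp hc
    exact (hS B hB).1 c hc
  have h1 := hP _ hr hcov
  have h2 : ∑ c ∈ 𝓑.biUnion S, c.2 ^ (n - 1) ≤ ∑ B ∈ 𝓑, ∑ c ∈ S B, c.2 ^ (n - 1) := by
    have : 𝓑.biUnion S = (𝓑.sigma (fun B => S B)).image (fun p => p.2) := by
      ext c
      simp only [Finset.mem_biUnion, Finset.mem_image, Finset.mem_sigma, Sigma.exists,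
        exists_eq_right]
    rw [Finset.sum_sigma', this]
    refine Finset.sum_image_le_of_nonneg (fun c hc => ?_)
    rw [← this] at hc
    exact pow_nonneg (hρ.le.trans (hr c hc)) _
  have hne : 𝓑.Nonempty := ⟨∅, by simp [h𝓑]⟩
  have h3 : ∑ B ∈ 𝓑, ∑ c ∈ S B, c.2 ^ (n - 1) < ∑ _B ∈ 𝓑, a / ((N : ℝ) + 1) ^ K₁ :=
    Finset.sum_lt_sum_of_nonempty hne (fun B hB => (hS B hB).2.2)
  rw [Finset.sum_const, nsmul_eq_mul] at h3
  have h4 : (𝓑.card : ℝ) ≤ ((N : ℝ) + 1) ^ K₁ := by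
    have := card_small N K₁
    have h5 : ((𝓑.card : ℕ) : ℝ) ≤ (((N + 1) ^ K₁ : ℕ) : ℝ) := by exact_mod_cast this
    simpa using h5
  have h5 : (𝓑.card : ℝ) * (a / ((N : ℝ) + 1) ^ K₁) ≤ a := by
    rw [mul_div_assoc', div_le_iff₀ hN]
    nlinarith
  linarith

theorem lim : Stmt.LIM := by
  intro b K₁ m c ε hb hε
  have hb' : (1 : ℝ) ≤ b := by exact_mod_cast hb
  set q : ℝ := 1 - 1 / (2 * (b : ℝ)) with hq
  have hb2 : (0 : ℝ) < 1 / (2 * (b : ℝ)) := by positivity
  have hb3 : 1 / (2 * (b : ℝ)) ≤ 1 / 2 := by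
    apply one_div_le_one_div_of_le <;> linarith
  have hq0 : 0 < q := by rw [hq]; linarith
  have hq1 : q < 1 := by rw [hq]; linarith
  have h1 : Tendsto (fun k : ℕ => (k : ℝ) ^ K₁ * q ^ k) atTop (nhds 0) :=
    tendsto_pow_const_mul_const_pow_of_abs_lt_one K₁ (by rw [abs_of_pos hq0]; exact hq1)
  have h2 : Tendsto (fun k : ℕ => (c / q) * ((((k + 1 : ℕ) : ℝ)) ^ K₁ * q ^ (k + 1))) atTop
      (nhds 0) := by
    have := (h1.comp (tendsto_add_atTop_nat 1)).const_mul (c / q)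
    simpa using this
  have h3 := (h2.eventually (gt_mem_nhds hε)).and (eventually_ge_atTop m)
  obtain ⟨N, hN, hm⟩ := h3.exists
  refine ⟨N, hm, ?_⟩
  have hN' : (0 : ℝ) < ((N : ℝ) + 1) ^ K₁ := by positivity
  rw [lt_div_iff₀ hN']
  calc c * q ^ N * ((N : ℝ) + 1) ^ K₁
      = (c / q) * ((((N + 1 : ℕ) : ℝ)) ^ K₁ * q ^ (N + 1)) := by
        push_cast
        field_simp
        ring
    _ < ε := hN

end Vale.Agent.P210.R2.H635
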